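import Vale.Agent.P195.Final

open CategoryTheory

universe u

theorem Vale.Agent.Results.P195.CharZero.result (K : Type u) [Field K] [CharZero K] :
    ∃ (A : Type u) (_ : Ring A) (_ : Algebra K A), FiniteDimensional K A ∧
      ∃ M : ModuleCat.{u} A, Module.Finite A M ∧
        (∀ i : ℕ, 1 ≤ i → ∀ x : Abelian.Ext.{u} M M i, x = 0) ∧
        (∀ i : ℕ, 1 ≤ i → ∀ x : Abelian.Ext.{u} M (ModuleCat.of A A) i, x = 0) ∧
        ¬ Module.Projective A M :=
  ⟨Vale.Agent.P195.AA K, inferInstance, inferInstance, Vale.Agent.P195.fin_AA,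
    Vale.Agent.P195.main⟩
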