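import Vale.Agent.P195.Main

open CategoryTheory

theorem Vale.Agent.Results.P195.Counterexample.result :
    ∃ (k : Type) (_ : Field k) (R : Type) (_ : Ring R) (_ : Algebra k R) (M : ModuleCat.{0} R),
      FiniteDimensional k R ∧ Module.Finite R M ∧
      (∀ i : ℕ, 1 ≤ i → Subsingleton (Abelian.Ext.{0} M M i)) ∧
      (∀ i : ℕ, 1 ≤ i → Subsingleton (Abelian.Ext.{0} M (ModuleCat.of R R) i)) ∧
      ¬ Module.Projective R M := by
  have hq := Vale.Agent.P195.gen_X
  refine ⟨RatFunc (ZMod 2), inferInstance, Vale.Agent.P195.Lam (Vale.Agent.P195.cd hq) RatFunc.X,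
    inferInstance, inferInstance, ModuleCat.of _
      (Vale.Agent.P195.ZM (RatFunc (ZMod 2)) (Vale.Agent.P195.ZZ _ hq.ne) 7),
    inferInstance, Vale.Agent.P195.M_fin _ _, fun i hi => ?_, fun i hi => ?_,
    Vale.Agent.P195.M_not_proj _ _⟩
  · obtain ⟨j, rfl⟩ := Nat.exists_eq_add_of_le' hi
    exact subsingleton_of_forall_eq 0 (Vale.Agent.P195.ext_MM _ _ hq.pow j)
  · obtain ⟨j, rfl⟩ := Nat.exists_eq_add_of_le' hi
    exact subsingleton_of_forall_eq 0 (Vale.Agent.P195.ext_ML _ _ j)
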